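import Mathlib
import Vale.Agent.P109.Final

namespace Vale.Agent.Results.P109.NoSmoothModel

open MeasureTheory Vale.Agent.P109

theorem result : ∃ (X : Type) (_ : MeasurableSpace X) (_ : StandardBorelSpace X) (μ : Measure X)
    (_ : IsProbabilityMeasure μ) (T : X ≃ᵐ X), (∀ x, μ {x} = 0) ∧
    IsoUnitInterval μ ∧ Ergodic T μ ∧ ksEntropy μ T < ⊤ ∧ ¬ HasSmoothModel μ T :=
  final

end Vale.Agent.Results.P109.NoSmoothModel
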